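import Mathlib

/-!
# P256: hyperbolic polynomials, hyperbolicity cones, spectrahedral shadows

Conventions of the problem file.  A polynomial `p` in `n` real variables is hyperbolic with
respect to `e` when it is homogeneous, `p e > 0`, and for every real point `x` all complex roots
of `t ↦ p (t e - x)` are real.  The closed hyperbolicity cone consists of the `x` for which every
root of `t ↦ p (t e - x)` is nonnegative.
-/

namespace Vale.Agent.P256

open MvPolynomial Matrix

/-- `p` is hyperbolic with respect to `e`: homogeneous, positive at `e`, and for every real `x`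
every complex root `z` of `t ↦ p (t e - x)` is real. -/
def IsHyperbolic {n : ℕ} (p : MvPolynomial (Fin n) ℝ) (e : Fin n → ℝ) : Prop :=
  (∃ d : ℕ, p.IsHomogeneous d) ∧ 0 < eval e p ∧
    ∀ x : Fin n → ℝ, ∀ z : ℂ,
      aeval (fun i => z * (e i : ℂ) - (x i : ℂ)) p = 0 → z.im = 0

/-- The closed hyperbolicity cone `K(p,e)`: all `x` such that every root of `t ↦ p (t e - x)`
is nonnegative. -/
def hypCone {n : ℕ} (p : MvPolynomial (Fin n) ℝ) (e : Fin n → ℝ) : Set (Fin n → ℝ) :=
  {x | ∀ t : ℝ, eval (fun i => t * e i - x i) p = 0 → 0 ≤ t}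

/-- A spectrahedron in `ℝ^n`: the solution set of a linear matrix inequality
`A0 + ∑ x_i A_i ⪰ 0` with real symmetric matrices of one finite size. -/
def IsSpectrahedron {n : ℕ} (S : Set (Fin n → ℝ)) : Prop :=
  ∃ (m : ℕ) (A0 : Matrix (Fin m) (Fin m) ℝ) (A : Fin n → Matrix (Fin m) (Fin m) ℝ),
    A0.IsSymm ∧ (∀ i, (A i).IsSymm) ∧
    S = {x | (A0 + ∑ i, x i • A i).PosSemidef}

/-- A spectrahedral shadow in `ℝ^n`: the set of `x` for which some `u ∈ ℝ^a` satisfies
`A0 + ∑ x_i A_i + ∑ u_j B_j ⪰ 0`, with real symmetric matrices of one finite size. -/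
def IsSpectrahedralShadow {n : ℕ} (S : Set (Fin n → ℝ)) : Prop :=
  ∃ (a m : ℕ) (A0 : Matrix (Fin m) (Fin m) ℝ) (A : Fin n → Matrix (Fin m) (Fin m) ℝ)
    (B : Fin a → Matrix (Fin m) (Fin m) ℝ),
    A0.IsSymm ∧ (∀ i, (A i).IsSymm) ∧ (∀ j, (B j).IsSymm) ∧
    S = {x | ∃ u : Fin a → ℝ, (A0 + ∑ i, x i • A i + ∑ j, u j • B j).PosSemidef}

/-- The linear form with coefficient vector `c`. -/
noncomputable def linForm {n : ℕ} (c : Fin n → ℝ) : MvPolynomial (Fin n) ℝ :=
  ∑ i, C (c i) * X i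

theorem spectrahedron_shadow {n : ℕ} {S : Set (Fin n → ℝ)} (h : IsSpectrahedron S) :
    IsSpectrahedralShadow S := by
  obtain ⟨m, A0, A, h0, hA, rfl⟩ := h
  refine ⟨0, m, A0, A, fun j => 0, h0, hA, fun j => j.elim0, ?_⟩
  ext x
  simp

end Vale.Agent.P256
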