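import Vale.Agent.Lib.P256.Defs

namespace Vale.Agent.P256

open MvPolynomial Matrix

/-! ### Hyperbolic quadratic forms -/

/-- The quadratic form polynomial `∑ i j, Q i j x_i x_j`. -/
noncomputable def quadForm {n : ℕ} (Q : Matrix (Fin n) (Fin n) ℝ) : MvPolynomial (Fin n) ℝ :=
  ∑ i, ∑ j, C (Q i j) * X i * X j

/-- The value `∑ i j, Q i j x_i y_j` of the bilinear form of `Q`. -/
def bil {n : ℕ} (Q : Matrix (Fin n) (Fin n) ℝ) (x y : Fin n → ℝ) : ℝ :=
  ∑ i, ∑ j, Q i j * x i * y j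

theorem eval_quadForm {n : ℕ} (Q : Matrix (Fin n) (Fin n) ℝ) (x : Fin n → ℝ) :
    eval x (quadForm Q) = bil Q x x := by
  simp [quadForm, bil]

theorem aeval_quadForm {n : ℕ} (Q : Matrix (Fin n) (Fin n) ℝ) (w : Fin n → ℂ) :
    aeval w (quadForm Q) = ∑ i, ∑ j, (Q i j : ℂ) * w i * w j := by
  simp [quadForm]

theorem quadForm_isHomogeneous {n : ℕ} (Q : Matrix (Fin n) (Fin n) ℝ) :
    (quadForm Q).IsHomogeneous 2 := by
  unfold quadForm
  apply IsHomogeneous.sum
  intro i _
  apply IsHomogeneous.sum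
  intro j _
  exact (isHomogeneous_C_mul_X (Q i j) i).mul (isHomogeneous_X ℝ j)

theorem bil_symm {n : ℕ} {Q : Matrix (Fin n) (Fin n) ℝ} (hQ : Q.IsSymm) (x y : Fin n → ℝ) :
    bil Q x y = bil Q y x := by
  unfold bil
  rw [Finset.sum_comm]
  apply Finset.sum_congr rfl
  intro i _
  apply Finset.sum_congr rfl
  intro j _
  rw [hQ.apply i j]; ring

theorem bil_comb {n : ℕ} (Q : Matrix (Fin n) (Fin n) ℝ) (u v : Fin n → ℝ) (a b : ℝ) :
    bil Q (fun i => a * u i + b * v i) (fun i => a * u i + b * v i)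
      = a ^ 2 * bil Q u u + a * b * bil Q u v + a * b * bil Q v u + b ^ 2 * bil Q v v := by
  have h1 : bil Q (fun i => a * u i + b * v i) (fun i => a * u i + b * v i)
      = ∑ i, ∑ j, (a ^ 2 * (Q i j * u i * u j) + a * b * (Q i j * u i * v j)
          + a * b * (Q i j * v i * u j) + b ^ 2 * (Q i j * v i * v j)) := by
    unfold bil
    apply Finset.sum_congr rfl
    intro i _
    apply Finset.sum_congr rfl
    intro j _
    ring
  rw [h1]
  unfold bil
  simp only [Finset.sum_add_distrib, Finset.mul_sum]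

theorem bil_cast {n : ℕ} (Q : Matrix (Fin n) (Fin n) ℝ) (u v : Fin n → ℝ) :
    ((bil Q u v : ℝ) : ℂ) = ∑ i, ∑ j, (Q i j : ℂ) * (u i : ℂ) * (v j : ℂ) := by
  unfold bil
  push_cast
  rfl

theorem eval_quadForm_line {n : ℕ} {Q : Matrix (Fin n) (Fin n) ℝ} (hQ : Q.IsSymm)
    (e x : Fin n → ℝ) (t : ℝ) :
    eval (fun i => t * e i - x i) (quadForm Q)
      = bil Q e e * t ^ 2 - 2 * bil Q e x * t + bil Q x x := by
  rw [eval_quadForm]
  have h : (fun i => t * e i - x i) = fun i => t * e i + (-1) * x i := by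
    funext i; ring
  rw [h, bil_comb, bil_symm hQ x e]
  ring

theorem aeval_quadForm_line {n : ℕ} {Q : Matrix (Fin n) (Fin n) ℝ} (hQ : Q.IsSymm)
    (e x : Fin n → ℝ) (z : ℂ) :
    aeval (fun i => z * (e i : ℂ) - (x i : ℂ)) (quadForm Q)
      = (bil Q e e : ℂ) * z ^ 2 - 2 * (bil Q e x : ℂ) * z + (bil Q x x : ℂ) := by
  rw [aeval_quadForm]
  have h1 : ∑ i, ∑ j, (Q i j : ℂ) * (z * (e i : ℂ) - (x i : ℂ)) * (z * (e j : ℂ) - (x j : ℂ))
      = ∑ i, ∑ j, (z ^ 2 * ((Q i j : ℂ) * e i * e j) - z * ((Q i j : ℂ) * e i * x j)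
          - z * ((Q i j : ℂ) * x i * e j) + (Q i j : ℂ) * x i * x j) := by
    apply Finset.sum_congr rfl
    intro i _
    apply Finset.sum_congr rfl
    intro j _
    ring
  rw [h1]
  simp only [Finset.sum_add_distrib, Finset.sum_sub_distrib, ← Finset.mul_sum]
  rw [← bil_cast, ← bil_cast, ← bil_cast, ← bil_cast, bil_symm hQ x e]
  ring

/-- Hyperbolicity of a quadratic form forces the discriminant of `t ↦ p (t e - x)` to be
nonnegative for every `x`. -/
theorem disc_nonneg {n : ℕ} {Q : Matrix (Fin n) (Fin n) ℝ} (hQ : Q.IsSymm) {e : Fin n → ℝ}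
    (h : IsHyperbolic (quadForm Q) e) (x : Fin n → ℝ) :
    bil Q e e * bil Q x x ≤ bil Q e x ^ 2 := by
  obtain ⟨-, hpos, hroots⟩ := h
  rw [eval_quadForm] at hpos
  by_contra hlt
  push Not at hlt
  set c := bil Q e e with hc
  set b := bil Q e x with hb
  set q := bil Q x x with hq
  have hD : 0 < c * q - b ^ 2 := by linarith
  set s := Real.sqrt (c * q - b ^ 2) with hs
  have hspos : 0 < s := Real.sqrt_pos.mpr hD
  have hs2 : s ^ 2 = c * q - b ^ 2 := Real.sq_sqrt hD.le
  have hs2c : (s : ℂ) ^ 2 = (c : ℂ) * q - (b : ℂ) ^ 2 := by exact_mod_cast hs2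
  have hc0 : (c : ℂ) ≠ 0 := by exact_mod_cast hpos.ne'
  have hz := hroots x (((b : ℂ) + (s : ℂ) * Complex.I) / (c : ℂ)) (by
    rw [aeval_quadForm_line hQ]
    have key : (c : ℂ) * (((b : ℂ) + (s : ℂ) * Complex.I) / (c : ℂ)) ^ 2
        - 2 * (b : ℂ) * (((b : ℂ) + (s : ℂ) * Complex.I) / (c : ℂ)) + (q : ℂ)
        = (((b : ℂ) + (s : ℂ) * Complex.I) ^ 2
            - 2 * (b : ℂ) * ((b : ℂ) + (s : ℂ) * Complex.I) + (c : ℂ) * q) / (c : ℂ) := by
      field_simp
    rw [key]
    have hnum : ((b : ℂ) + (s : ℂ) * Complex.I) ^ 2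
        - 2 * (b : ℂ) * ((b : ℂ) + (s : ℂ) * Complex.I) + (c : ℂ) * q = 0 := by
      linear_combination (-1 : ℂ) * hs2c + (s : ℂ) ^ 2 * Complex.I_sq
    rw [hnum, zero_div])
  have him : (((b : ℂ) + (s : ℂ) * Complex.I) / (c : ℂ)).im = s / c := by
    rw [Complex.div_ofReal_im]
    simp
  rw [him] at hz
  have : s = 0 := by
    rcases div_eq_zero_iff.mp hz with h0 | h0
    · exact h0
    · exact absurd h0 hpos.ne'
  exact hspos.ne' this

/-- The hyperbolicity cone of a hyperbolic quadratic form: `b(x) ≥ 0` and `p(x) ≥ 0`, where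
`b(x) = ∑ Q i j e_i x_j`. -/
theorem hypCone_quadForm {n : ℕ} {Q : Matrix (Fin n) (Fin n) ℝ} (hQ : Q.IsSymm)
    {e : Fin n → ℝ} (h : IsHyperbolic (quadForm Q) e) :
    hypCone (quadForm Q) e = {x | 0 ≤ bil Q e x ∧ 0 ≤ bil Q x x} := by
  have hpos : 0 < bil Q e e := by
    have := h.2.1
    rwa [eval_quadForm] at this
  ext x
  simp only [hypCone, Set.mem_ofPred_eq, eval_quadForm_line hQ]
  have hdisc := disc_nonneg hQ h x
  set c := bil Q e e with hc
  set b := bil Q e x with hb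
  set q := bil Q x x with hq
  constructor
  · intro hx
    have hD : 0 ≤ b ^ 2 - c * q := by linarith
    set s := Real.sqrt (b ^ 2 - c * q) with hs
    have hs0 : 0 ≤ s := Real.sqrt_nonneg _
    have hs2 : s ^ 2 = b ^ 2 - c * q := Real.sq_sqrt hD
    have hroot : c * ((b - s) / c) ^ 2 - 2 * b * ((b - s) / c) + q = 0 := by
      have key : c * ((b - s) / c) ^ 2 - 2 * b * ((b - s) / c) + q
          = ((b - s) ^ 2 - 2 * b * (b - s) + c * q) / c := by
        field_simp
      rw [key]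
      have hnum : (b - s) ^ 2 - 2 * b * (b - s) + c * q = 0 := by
        linear_combination hs2
      rw [hnum, zero_div]
    have ht := hx ((b - s) / c) hroot
    have h1 : 0 ≤ b - s := by
      by_contra hneg
      push Not at hneg
      have := div_neg_of_neg_of_pos hneg hpos
      linarith
    have hb0 : 0 ≤ b := by linarith
    have h2 : 0 ≤ c * q := by nlinarith
    exact ⟨hb0, nonneg_of_mul_nonneg_right h2 hpos⟩
  · rintro ⟨hb0, hq0⟩ t ht
    by_contra hneg
    push Not at hneg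
    have ht2 : 0 < t ^ 2 := by nlinarith [mul_pos_of_neg_of_neg hneg hneg]
    have h1 : 0 < c * t ^ 2 := mul_pos hpos ht2
    have h2 : 0 ≤ -(2 * b * t) := by nlinarith
    linarith

/-! #### The linear matrix inequality -/

/-- `g k = ∑ i, Q i k * e i`: the coefficients of the linear form `x ↦ ∑ Q i j e_i x_j`. -/
def gvec {n : ℕ} (Q : Matrix (Fin n) (Fin n) ℝ) (e : Fin n → ℝ) : Fin n → ℝ :=
  fun k => ∑ i, Q i k * e i

/-- `P = g gᵀ - c Q` with `c = ∑ Q i j e_i e_j`. -/
def Pmat {n : ℕ} (Q : Matrix (Fin n) (Fin n) ℝ) (e : Fin n → ℝ) : Matrix (Fin n) (Fin n) ℝ :=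
  of (fun i j => gvec Q e i * gvec Q e j - bil Q e e * Q i j)

theorem bil_e {n : ℕ} (Q : Matrix (Fin n) (Fin n) ℝ) (e x : Fin n → ℝ) :
    bil Q e x = ∑ k, gvec Q e k * x k := by
  unfold bil gvec
  rw [Finset.sum_comm]
  apply Finset.sum_congr rfl
  intro k _
  rw [Finset.sum_mul]

theorem bil_rank_one_sub {n : ℕ} (Q : Matrix (Fin n) (Fin n) ℝ) (g : Fin n → ℝ) (c : ℝ)
    (x y : Fin n → ℝ) :
    bil (of (fun i j => g i * g j - c * Q i j)) x y
      = (∑ k, g k * x k) * (∑ k, g k * y k) - c * bil Q x y := by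
  unfold bil
  rw [Finset.sum_mul_sum, Finset.mul_sum, ← Finset.sum_sub_distrib]
  apply Finset.sum_congr rfl
  intro i _
  rw [Finset.mul_sum, ← Finset.sum_sub_distrib]
  apply Finset.sum_congr rfl
  intro j _
  simp only [of_apply]
  ring

theorem bil_Pmat {n : ℕ} (Q : Matrix (Fin n) (Fin n) ℝ) (e x y : Fin n → ℝ) :
    bil (Pmat Q e) x y = bil Q e x * bil Q e y - bil Q e e * bil Q x y := by
  rw [bil_e Q e x, bil_e Q e y]
  exact bil_rank_one_sub Q (gvec Q e) (bil Q e e) x y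

theorem Pmat_symm {n : ℕ} {Q : Matrix (Fin n) (Fin n) ℝ} (hQ : Q.IsSymm) (e : Fin n → ℝ) :
    (Pmat Q e).IsSymm := by
  unfold Matrix.IsSymm
  ext i j
  simp only [transpose_apply, Pmat, of_apply]
  rw [hQ.apply i j]; ring

theorem Pmat_nonneg {n : ℕ} {Q : Matrix (Fin n) (Fin n) ℝ} (hQ : Q.IsSymm) {e : Fin n → ℝ}
    (h : IsHyperbolic (quadForm Q) e) (v : Fin n → ℝ) : 0 ≤ bil (Pmat Q e) v v := by
  rw [bil_Pmat]
  have := disc_nonneg hQ h v
  nlinarith

/-- Cauchy-Schwarz for a symmetric matrix with nonnegative quadratic form. -/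
theorem bil_cauchy {n : ℕ} {P : Matrix (Fin n) (Fin n) ℝ} (hP : P.IsSymm)
    (hnn : ∀ v : Fin n → ℝ, 0 ≤ bil P v v) (y x : Fin n → ℝ) :
    bil P y x ^ 2 ≤ bil P y y * bil P x x := by
  have key : ∀ a b : ℝ,
      0 ≤ a ^ 2 * bil P y y + 2 * a * b * bil P y x + b ^ 2 * bil P x x := by
    intro a b
    have := hnn (fun i => a * y i + b * x i)
    rw [bil_comb, bil_symm hP x y] at this
    linarith
  have hr := hnn x
  have hq := hnn y
  set q := bil P y y with hq'
  set w := bil P y x with hw'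
  set r := bil P x x with hr'
  rcases hr.eq_or_lt with hr0 | hrpos
  · -- r = 0, so w = 0
    have hw0 : w = 0 := by
      by_contra hne
      have h1 := key 1 (-(q + 1) / (2 * w))
      rw [← hr0] at h1
      have h2 : 2 * (1 : ℝ) * (-(q + 1) / (2 * w)) * w = -(q + 1) := by
        field_simp
      nlinarith
    rw [hw0, ← hr0]; simp
  · have h1 := key r (-w)
    have h2 : 0 ≤ r * (q * r - w ^ 2) := by nlinarith
    have h3 : 0 ≤ q * r - w ^ 2 := nonneg_of_mul_nonneg_right h2 hrpos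
    linarith

/-- The arrow-shaped matrix with corner `b`, border `Px` and block `b • P`. -/
def arrow {n : ℕ} (b : ℝ) (Px : Fin n → ℝ) (P : Matrix (Fin n) (Fin n) ℝ) :
    Matrix (Fin (n + 1)) (Fin (n + 1)) ℝ :=
  of (fun i j => Fin.cases (Fin.cases b (fun j' => Px j') j)
    (fun i' => Fin.cases (Px i') (fun j' => b * P i' j') j) i)

theorem arrow_symm {n : ℕ} (b : ℝ) (Px : Fin n → ℝ) {P : Matrix (Fin n) (Fin n) ℝ}
    (hP : P.IsSymm) : (arrow b Px P).IsSymm := by
  unfold Matrix.IsSymm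
  ext i j
  simp only [transpose_apply, arrow, of_apply]
  refine Fin.cases ?_ (fun i' => ?_) i <;> refine Fin.cases ?_ (fun j' => ?_) j
  · rfl
  · simp
  · simp
  · simp only [Fin.cases_succ]
    rw [hP.apply i' j']

theorem arrow_form {n : ℕ} (b : ℝ) (Px : Fin n → ℝ) (P : Matrix (Fin n) (Fin n) ℝ)
    (v : Fin (n + 1) → ℝ) :
    ∑ i, v i * ∑ j, arrow b Px P i j * v j
      = b * v 0 ^ 2 + 2 * v 0 * (∑ i, Px i * v i.succ)
        + b * bil P (fun i => v i.succ) (fun i => v i.succ) := by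
  rw [Fin.sum_univ_succ]
  simp only [arrow, of_apply, Fin.cases_zero, Fin.cases_succ, Fin.sum_univ_succ]
  have e1 : ∑ i : Fin n, v i.succ * (Px i * v 0 + ∑ j : Fin n, b * P i j * v j.succ)
      = v 0 * (∑ i, Px i * v i.succ)
        + b * bil P (fun i => v i.succ) (fun i => v i.succ) := by
    unfold bil
    rw [Finset.mul_sum, Finset.mul_sum, ← Finset.sum_add_distrib]
    apply Finset.sum_congr rfl
    intro i _
    rw [Finset.mul_sum, mul_add, Finset.mul_sum]
    congr 1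
    · ring
    · apply Finset.sum_congr rfl
      intro j _
      ring
  rw [e1]
  ring

/-- The coefficient matrices of the linear matrix inequality for a quadratic form. -/
def Mlin {n : ℕ} (Q : Matrix (Fin n) (Fin n) ℝ) (e : Fin n → ℝ) (k : Fin n) :
    Matrix (Fin (n + 1)) (Fin (n + 1)) ℝ :=
  arrow (gvec Q e k) (fun i => Pmat Q e i k) (Pmat Q e)

theorem Mlin_symm {n : ℕ} {Q : Matrix (Fin n) (Fin n) ℝ} (hQ : Q.IsSymm) (e : Fin n → ℝ)
    (k : Fin n) : (Mlin Q e k).IsSymm :=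
  arrow_symm _ _ (Pmat_symm hQ e)

theorem arrow_eq_sum {n : ℕ} (Q : Matrix (Fin n) (Fin n) ℝ) (e x : Fin n → ℝ) :
    (0 + ∑ k, x k • Mlin Q e k : Matrix (Fin (n + 1)) (Fin (n + 1)) ℝ)
      = arrow (bil Q e x) (fun i => ∑ k, Pmat Q e i k * x k) (Pmat Q e) := by
  ext i j
  simp only [zero_add, Matrix.sum_apply, Matrix.smul_apply, smul_eq_mul, Mlin, arrow, of_apply]
  refine Fin.cases ?_ (fun i' => ?_) i <;> refine Fin.cases ?_ (fun j' => ?_) j
  · simp only [Fin.cases_zero]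
    rw [bil_e]
    apply Finset.sum_congr rfl
    intro k _; ring
  · simp only [Fin.cases_zero, Fin.cases_succ]
    apply Finset.sum_congr rfl
    intro k _; ring
  · simp only [Fin.cases_zero, Fin.cases_succ]
    apply Finset.sum_congr rfl
    intro k _; ring
  · simp only [Fin.cases_succ]
    rw [bil_e, Finset.sum_mul]
    apply Finset.sum_congr rfl
    intro k _; ring

theorem border_eq {n : ℕ} (P : Matrix (Fin n) (Fin n) ℝ) (x y : Fin n → ℝ) :
    ∑ i, (∑ k, P i k * x k) * y i = bil P y x := by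
  unfold bil
  apply Finset.sum_congr rfl
  intro i _
  rw [Finset.sum_mul]
  apply Finset.sum_congr rfl
  intro k _; ring

/-- The arrow matrix of `x` is positive semidefinite iff `b(x) ≥ 0` and `xᵀ P x ≤ b(x)²`. -/
theorem arrow_psd {n : ℕ} {P : Matrix (Fin n) (Fin n) ℝ} (hP : P.IsSymm)
    (hnn : ∀ v : Fin n → ℝ, 0 ≤ bil P v v) (b : ℝ) (x : Fin n → ℝ) :
    (arrow b (fun i => ∑ k, P i k * x k) P).PosSemidef ↔ 0 ≤ b ∧ bil P x x ≤ b ^ 2 := by
  have hform : ∀ v : Fin (n + 1) → ℝ,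
      star v ⬝ᵥ (arrow b (fun i => ∑ k, P i k * x k) P *ᵥ v)
        = b * v 0 ^ 2 + 2 * v 0 * bil P (fun i => v i.succ) x
          + b * bil P (fun i => v i.succ) (fun i => v i.succ) := by
    intro v
    rw [star_trivial, ← border_eq P x (fun i => v i.succ), ← arrow_form]
    rfl
  constructor
  · intro hM
    have hb : 0 ≤ b := by
      have := hM.diag_nonneg (i := (0 : Fin (n + 1)))
      simpa [arrow] using this
    refine ⟨hb, ?_⟩
    have hall : ∀ s : ℝ, 0 ≤ b * (s * s) + 2 * bil P x x * s + b * bil P x x := by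
      intro s
      have h1 := hM.dotProduct_mulVec_nonneg (Fin.cons s x : Fin (n + 1) → ℝ)
      rw [hform] at h1
      simp only [Fin.cons_zero, Fin.cons_succ] at h1
      linarith
    have hd := discrim_le_zero hall
    unfold discrim at hd
    have hr := hnn x
    by_contra hlt
    push Not at hlt
    have hrpos : 0 < bil P x x := lt_of_le_of_lt (sq_nonneg b) hlt
    have := mul_pos hrpos (sub_pos.mpr hlt)
    nlinarith
  · rintro ⟨hb, hr⟩
    refine PosSemidef.of_dotProduct_mulVec_nonneg ?_ ?_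
    · have hs := arrow_symm b (fun i => ∑ k, P i k * x k) hP
      unfold Matrix.IsHermitian
      rw [Matrix.conjTranspose_eq_transpose_of_trivial]
      exact hs
    · intro v
      rw [hform]
      have hcs := bil_cauchy hP hnn (fun i => v i.succ) x
      have hq := hnn (fun i => v i.succ)
      have hr0 := hnn x
      set q := bil P (fun i => v i.succ) (fun i => v i.succ) with hq'
      set w := bil P (fun i => v i.succ) x with hw'
      set r := bil P x x with hr'
      set s := v 0 with hs'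
      have hw : w ^ 2 ≤ q * b ^ 2 := by nlinarith
      rcases hb.eq_or_lt with hb0 | hbpos
      · have hw0 : w = 0 := by
          rw [← hb0] at hw
          have : w ^ 2 ≤ 0 := by nlinarith
          exact pow_eq_zero_iff (two_ne_zero) |>.mp (le_antisymm this (sq_nonneg w))
        rw [← hb0, hw0]; simp
      · have h1 : 0 ≤ b * (b * s ^ 2 + 2 * s * w + b * q) := by
          nlinarith [sq_nonneg (b * s + w)]
        exact nonneg_of_mul_nonneg_right h1 hbpos

/-- The hyperbolicity cone of a hyperbolic quadratic form is a spectrahedron. -/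
theorem quadForm_spectrahedron {n : ℕ} {Q : Matrix (Fin n) (Fin n) ℝ} (hQ : Q.IsSymm)
    {e : Fin n → ℝ} (h : IsHyperbolic (quadForm Q) e) :
    IsSpectrahedron (hypCone (quadForm Q) e) := by
  have hpos : 0 < bil Q e e := by
    have := h.2.1
    rwa [eval_quadForm] at this
  refine ⟨n + 1, 0, Mlin Q e, by simp [Matrix.IsSymm], Mlin_symm hQ e, ?_⟩
  rw [hypCone_quadForm hQ h]
  ext x
  simp only [Set.mem_ofPred_eq]
  rw [arrow_eq_sum, arrow_psd (Pmat_symm hQ e) (Pmat_nonneg hQ h), bil_Pmat]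
  constructor
  · rintro ⟨hb, hq⟩
    refine ⟨hb, ?_⟩
    have := mul_nonneg hpos.le hq
    nlinarith
  · rintro ⟨hb, hq⟩
    refine ⟨hb, ?_⟩
    have h2 : 0 ≤ bil Q e e * bil Q x x := by nlinarith
    exact nonneg_of_mul_nonneg_right h2 hpos

end Vale.Agent.P256
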