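import Vale.Agent.Lib.P256.Defs

namespace Vale.Agent.P256

open Matrix

/-! ### Block diagonal matrices on `Fin (m + m')` and intersections of shadows -/

/-- The block diagonal matrix with blocks `X` and `Y`, indexed by `Fin (m + m')`. -/
def blk {m m' : ℕ} (X : Matrix (Fin m) (Fin m) ℝ) (Y : Matrix (Fin m') (Fin m') ℝ) :
    Matrix (Fin (m + m')) (Fin (m + m')) ℝ :=
  (fromBlocks X 0 0 Y).submatrix finSumFinEquiv.symm finSumFinEquiv.symm

theorem blk_add {m m' : ℕ} (X X' : Matrix (Fin m) (Fin m) ℝ)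
    (Y Y' : Matrix (Fin m') (Fin m') ℝ) : blk (X + X') (Y + Y') = blk X Y + blk X' Y' := by
  unfold blk
  have h : fromBlocks (X + X') 0 0 (Y + Y') = fromBlocks X 0 0 Y + fromBlocks X' 0 0 Y' := by
    rw [fromBlocks_add]; simp
  rw [h]; rfl

theorem blk_smul {m m' : ℕ} (c : ℝ) (X : Matrix (Fin m) (Fin m) ℝ)
    (Y : Matrix (Fin m') (Fin m') ℝ) : blk (c • X) (c • Y) = c • blk X Y := by
  unfold blk
  have h : fromBlocks (c • X) 0 0 (c • Y) = c • fromBlocks X 0 0 Y := by
    rw [fromBlocks_smul]; simp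
  rw [h]; rfl

theorem blk_zero {m m' : ℕ} :
    blk (0 : Matrix (Fin m) (Fin m) ℝ) (0 : Matrix (Fin m') (Fin m') ℝ) = 0 := by
  unfold blk
  ext i j
  simp [fromBlocks_zero]

theorem blk_sum {m m' : ℕ} {ι : Type*} (s : Finset ι) (f : ι → Matrix (Fin m) (Fin m) ℝ)
    (g : ι → Matrix (Fin m') (Fin m') ℝ) :
    blk (∑ i ∈ s, f i) (∑ i ∈ s, g i) = ∑ i ∈ s, blk (f i) (g i) := by
  classical
  induction s using Finset.induction_on with
  | empty => simp [blk_zero]
  | insert a s ha ih => rw [Finset.sum_insert ha, Finset.sum_insert ha, Finset.sum_insert ha,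
      blk_add, ih]

theorem blk_sum_left {m m' : ℕ} {ι : Type*} (s : Finset ι) (c : ι → ℝ)
    (f : ι → Matrix (Fin m) (Fin m) ℝ) :
    blk (∑ i ∈ s, c i • f i) (0 : Matrix (Fin m') (Fin m') ℝ)
      = ∑ i ∈ s, c i • blk (f i) (0 : Matrix (Fin m') (Fin m') ℝ) := by
  have h := blk_sum s (fun i => c i • f i) (fun i => c i • (0 : Matrix (Fin m') (Fin m') ℝ))
  simp only [smul_zero, Finset.sum_const_zero] at h
  rw [h]
  apply Finset.sum_congr rfl
  intro i _
  have := blk_smul (c i) (f i) (0 : Matrix (Fin m') (Fin m') ℝ)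
  rwa [smul_zero] at this

theorem blk_sum_right {m m' : ℕ} {ι : Type*} (s : Finset ι) (c : ι → ℝ)
    (g : ι → Matrix (Fin m') (Fin m') ℝ) :
    blk (0 : Matrix (Fin m) (Fin m) ℝ) (∑ i ∈ s, c i • g i)
      = ∑ i ∈ s, c i • blk (0 : Matrix (Fin m) (Fin m) ℝ) (g i) := by
  have h := blk_sum s (fun i => c i • (0 : Matrix (Fin m) (Fin m) ℝ)) (fun i => c i • g i)
  simp only [smul_zero, Finset.sum_const_zero] at h
  rw [h]
  apply Finset.sum_congr rfl
  intro i _
  have := blk_smul (c i) (0 : Matrix (Fin m) (Fin m) ℝ) (g i)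
  rwa [smul_zero] at this

theorem blk_isSymm {m m' : ℕ} {X : Matrix (Fin m) (Fin m) ℝ} {Y : Matrix (Fin m') (Fin m') ℝ}
    (hX : X.IsSymm) (hY : Y.IsSymm) : (blk X Y).IsSymm := by
  unfold blk
  apply Matrix.IsSymm.submatrix
  exact Matrix.IsSymm.fromBlocks hX (by simp) hY

theorem fromBlocks_posSemidef {m m' : ℕ} (X : Matrix (Fin m) (Fin m) ℝ)
    (Y : Matrix (Fin m') (Fin m') ℝ) :
    (fromBlocks X 0 0 Y).PosSemidef ↔ X.PosSemidef ∧ Y.PosSemidef := by
  constructor
  · intro h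
    constructor
    · have h1 := h.submatrix (Sum.inl : Fin m → Fin m ⊕ Fin m')
      have e1 : (fromBlocks X 0 0 Y).submatrix (Sum.inl : Fin m → Fin m ⊕ Fin m') Sum.inl = X := by
        ext i j; simp
      rwa [e1] at h1
    · have h1 := h.submatrix (Sum.inr : Fin m' → Fin m ⊕ Fin m')
      have e1 : (fromBlocks X 0 0 Y).submatrix (Sum.inr : Fin m' → Fin m ⊕ Fin m') Sum.inr = Y := by
        ext i j; simp
      rwa [e1] at h1
  · rintro ⟨hX, hY⟩
    refine PosSemidef.of_dotProduct_mulVec_nonneg ?_ ?_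
    · exact Matrix.IsHermitian.fromBlocks hX.1 (by simp) hY.1
    · intro x
      have h1 := hX.dotProduct_mulVec_nonneg (x ∘ Sum.inl)
      have h2 := hY.dotProduct_mulVec_nonneg (x ∘ Sum.inr)
      have e : star x ⬝ᵥ (fromBlocks X 0 0 Y *ᵥ x)
          = star (x ∘ Sum.inl) ⬝ᵥ (X *ᵥ (x ∘ Sum.inl))
            + star (x ∘ Sum.inr) ⬝ᵥ (Y *ᵥ (x ∘ Sum.inr)) := by
        rw [fromBlocks_mulVec]
        simp [dotProduct, Fintype.sum_sum_type]
      rw [e]
      exact add_nonneg h1 h2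

theorem blk_posSemidef {m m' : ℕ} (X : Matrix (Fin m) (Fin m) ℝ)
    (Y : Matrix (Fin m') (Fin m') ℝ) :
    (blk X Y).PosSemidef ↔ X.PosSemidef ∧ Y.PosSemidef := by
  unfold blk
  rw [posSemidef_submatrix_equiv, fromBlocks_posSemidef]

/-- The intersection of two spectrahedral shadows is a spectrahedral shadow. -/
theorem shadow_inter {n : ℕ} {S T : Set (Fin n → ℝ)} (hS : IsSpectrahedralShadow S)
    (hT : IsSpectrahedralShadow T) : IsSpectrahedralShadow (S ∩ T) := by
  obtain ⟨a, m, A0, A, B, h0, hA, hB, rfl⟩ := hS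
  obtain ⟨a', m', A0', A', B', h0', hA', hB', rfl⟩ := hT
  have hz : ∀ k : ℕ, (0 : Matrix (Fin k) (Fin k) ℝ).IsSymm := fun k => by simp [Matrix.IsSymm]
  refine ⟨a + a', m + m', blk A0 A0', fun i => blk (A i) (A' i),
    Fin.addCases (fun j => blk (B j) 0) (fun j => blk 0 (B' j)),
    blk_isSymm h0 h0', fun i => blk_isSymm (hA i) (hA' i), ?_, ?_⟩
  · intro j
    refine Fin.addCases (fun j => ?_) (fun j => ?_) j
    · simp only [Fin.addCases_left]; exact blk_isSymm (hB j) (hz m')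
    · simp only [Fin.addCases_right]; exact blk_isSymm (hz m) (hB' j)
  · have key : ∀ (x : Fin n → ℝ) (w : Fin (a + a') → ℝ),
        blk A0 A0' + ∑ i, x i • blk (A i) (A' i)
          + ∑ j, w j • (Fin.addCases (fun j => blk (B j) 0) (fun j => blk 0 (B' j)) j :
              Matrix (Fin (m + m')) (Fin (m + m')) ℝ)
        = blk (A0 + ∑ i, x i • A i + ∑ j, w (Fin.castAdd a' j) • B j)
            (A0' + ∑ i, x i • A' i + ∑ j, w (Fin.natAdd a j) • B' j) := by
      intro x w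
      rw [Fin.sum_univ_add]
      simp only [Fin.addCases_left, Fin.addCases_right]
      rw [blk_add, blk_add, blk_sum]
      have e1 : ∀ i, blk (x i • A i) (x i • A' i) = x i • blk (A i) (A' i) :=
        fun i => blk_smul _ _ _
      simp only [e1]
      have e2 : blk (∑ j, w (Fin.castAdd a' j) • B j) (∑ j, w (Fin.natAdd a j) • B' j)
          = blk (∑ j, w (Fin.castAdd a' j) • B j) (0 : Matrix (Fin m') (Fin m') ℝ)
            + blk (0 : Matrix (Fin m) (Fin m) ℝ) (∑ j, w (Fin.natAdd a j) • B' j) := by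
        rw [← blk_add, add_zero, zero_add]
      rw [e2, blk_sum_left, blk_sum_right]
    ext x
    simp only [Set.mem_inter_iff, Set.mem_ofPred_eq]
    constructor
    · rintro ⟨⟨u, hu⟩, ⟨u', hu'⟩⟩
      refine ⟨Fin.addCases u u', ?_⟩
      rw [key, blk_posSemidef]
      refine ⟨?_, ?_⟩
      · simpa using hu
      · simpa using hu'
    · rintro ⟨w, hw⟩
      rw [key, blk_posSemidef] at hw
      exact ⟨⟨fun j => w (Fin.castAdd a' j), hw.1⟩, ⟨fun j => w (Fin.natAdd a j), hw.2⟩⟩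

/-- The intersection of two spectrahedra is a spectrahedron. -/
theorem spectrahedron_inter {n : ℕ} {S T : Set (Fin n → ℝ)} (hS : IsSpectrahedron S)
    (hT : IsSpectrahedron T) : IsSpectrahedron (S ∩ T) := by
  obtain ⟨m, A0, A, h0, hA, rfl⟩ := hS
  obtain ⟨m', A0', A', h0', hA', rfl⟩ := hT
  refine ⟨m + m', blk A0 A0', fun i => blk (A i) (A' i), blk_isSymm h0 h0',
    fun i => blk_isSymm (hA i) (hA' i), ?_⟩
  have key : ∀ x : Fin n → ℝ,
      blk A0 A0' + ∑ i, x i • blk (A i) (A' i)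
        = blk (A0 + ∑ i, x i • A i) (A0' + ∑ i, x i • A' i) := by
    intro x
    rw [blk_add, blk_sum]
    simp only [blk_smul]
  ext x
  simp only [Set.mem_inter_iff, Set.mem_ofPred_eq]
  rw [key, blk_posSemidef]

end Vale.Agent.P256
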