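import Vale.Agent.Lib.P256.Products
import Vale.Agent.Lib.P256.Shadow
import Vale.Agent.Lib.P256.Quadratic

namespace Vale.Agent.P256

open MvPolynomial Matrix

/-! ### Polynomials that split into linear and quadratic factors -/

theorem spectrahedron_univ {n : ℕ} : IsSpectrahedron (Set.univ : Set (Fin n → ℝ)) := by
  refine ⟨0, 0, fun _ => 0, by simp [Matrix.IsSymm], fun _ => by simp [Matrix.IsSymm], ?_⟩
  ext x
  simp [PosSemidef.zero]

theorem hypCone_one {n : ℕ} (e : Fin n → ℝ) :
    hypCone (1 : MvPolynomial (Fin n) ℝ) e = Set.univ := by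
  ext x
  simp [hypCone]

theorem spectrahedron_prod {n : ℕ} {ι : Type*} (s : Finset ι)
    (f : ι → MvPolynomial (Fin n) ℝ)
    (e : Fin n → ℝ) (h : ∀ j ∈ s, IsSpectrahedron (hypCone (f j) e)) :
    IsSpectrahedron (hypCone (∏ j ∈ s, f j) e) := by
  classical
  induction s using Finset.induction_on with
  | empty => rw [Finset.prod_empty, hypCone_one]; exact spectrahedron_univ
  | insert a s ha ih =>
    rw [Finset.prod_insert ha, hypCone_mul]
    exact spectrahedron_inter (h a (Finset.mem_insert_self a s))
      (ih (fun j hj => h j (Finset.mem_insert_of_mem hj)))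

/-- A linear form that does not vanish at `e`: the set of `x` for which the root of
`t ↦ l (t e - x)` is nonnegative is a half-space, hence a spectrahedron. -/
theorem hypCone_linForm_spectrahedron {n : ℕ} (l e : Fin n → ℝ) (hne : ∑ i, l i * e i ≠ 0) :
    IsSpectrahedron (hypCone (linForm l) e) := by
  have hc : hypCone (linForm l) e
      = {x | ∀ _j : Fin 1, 0 ≤ ∑ i, ((∑ i, l i * e i) * l i) * x i} := by
    ext x
    simp only [hypCone, Set.mem_ofPred_eq, eval_linForm_line]
    have hsum : ∑ i, ((∑ i, l i * e i) * l i) * x i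
        = (∑ i, l i * e i) * ∑ i, l i * x i := by
      rw [Finset.mul_sum]
      apply Finset.sum_congr rfl
      intro i _; ring
    rw [hsum]
    set L := ∑ i, l i * e i with hL
    set X := ∑ i, l i * x i with hX
    have hL2 : 0 < L ^ 2 := lt_of_le_of_ne (sq_nonneg L) (Ne.symm (pow_ne_zero 2 hne))
    constructor
    · intro h _
      have h1 := h (X / L) (by field_simp; ring)
      have h2 : L * X = (X / L) * L ^ 2 := by field_simp
      rw [h2]
      exact mul_nonneg h1 hL2.le
    · intro h t ht
      have hXt : X = t * L := by linarith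
      have h1 := h 0
      rw [hXt] at h1
      by_contra hneg
      push Not at hneg
      nlinarith
  rw [hc]
  exact polyhedral_spectrahedron (fun (_ : Fin 1) i => (∑ i, l i * e i) * l i)

theorem quadForm_neg {n : ℕ} (Q : Matrix (Fin n) (Fin n) ℝ) :
    quadForm (-Q) = -quadForm Q := by
  simp [quadForm, Finset.sum_neg_distrib]

theorem hypCone_neg {n : ℕ} (p : MvPolynomial (Fin n) ℝ) (e : Fin n → ℝ) :
    hypCone (-p) e = hypCone p e := by
  ext x
  simp [hypCone]

/-- A quadratic form that does not vanish at `e` and has only real roots along lines in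
direction `e`: the associated cone is a spectrahedron. -/
theorem quad_factor_spectrahedron {n : ℕ} {Q : Matrix (Fin n) (Fin n) ℝ} (hQ : Q.IsSymm)
    {e : Fin n → ℝ} (hne : eval e (quadForm Q) ≠ 0)
    (hr : ∀ x : Fin n → ℝ, ∀ z : ℂ,
      aeval (fun i => z * (e i : ℂ) - (x i : ℂ)) (quadForm Q) = 0 → z.im = 0) :
    IsSpectrahedron (hypCone (quadForm Q) e) := by
  rcases lt_or_gt_of_ne hne with hneg | hpos
  · have hQ' : (-Q).IsSymm := hQ.neg
    have hyp : IsHyperbolic (quadForm (-Q)) e := by
      refine ⟨⟨2, quadForm_isHomogeneous _⟩, ?_, ?_⟩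
      · rw [quadForm_neg, map_neg]; linarith
      · intro x z hz
        rw [quadForm_neg, map_neg, neg_eq_zero] at hz
        exact hr x z hz
    have h1 := quadForm_spectrahedron hQ' hyp
    rwa [quadForm_neg, hypCone_neg] at h1
  · exact quadForm_spectrahedron hQ ⟨⟨2, quadForm_isHomogeneous _⟩, hpos, hr⟩

/-- If a product of linear forms and quadratic forms is hyperbolic with respect to `e`, its
hyperbolicity cone is a spectrahedron. -/
theorem factors_spectrahedron {n k m : ℕ} (l : Fin k → Fin n → ℝ)
    (Q : Fin m → Matrix (Fin n) (Fin n) ℝ) (e : Fin n → ℝ) (hQ : ∀ j, (Q j).IsSymm)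
    (h : IsHyperbolic ((∏ j, linForm (l j)) * ∏ j, quadForm (Q j)) e) :
    IsSpectrahedron (hypCone ((∏ j, linForm (l j)) * ∏ j, quadForm (Q j)) e) := by
  obtain ⟨-, hpos, hroots⟩ := h
  rw [map_mul, map_prod, map_prod] at hpos
  have hA : ∏ j, eval e (linForm (l j)) ≠ 0 := fun h0 => by
    rw [h0, zero_mul] at hpos; exact lt_irrefl _ hpos
  have hB : ∏ j, eval e (quadForm (Q j)) ≠ 0 := fun h0 => by
    rw [h0, mul_zero] at hpos; exact lt_irrefl _ hpos
  rw [hypCone_mul]
  apply spectrahedron_inter
  · apply spectrahedron_prod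
    intro j _
    apply hypCone_linForm_spectrahedron
    have := Finset.prod_ne_zero_iff.mp hA j (Finset.mem_univ j)
    rwa [eval_linForm] at this
  · apply spectrahedron_prod
    intro j _
    apply quad_factor_spectrahedron (hQ j) (Finset.prod_ne_zero_iff.mp hB j (Finset.mem_univ j))
    intro x z hz
    apply hroots x z
    rw [map_mul, map_prod, map_prod, Finset.prod_eq_zero (Finset.mem_univ j) hz, mul_zero]

end Vale.Agent.P256
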