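import Vale.Agent.Lib.P256.Defs

namespace Vale.Agent.P256

open MvPolynomial Matrix

/-! ### Products of hyperbolic polynomials -/

theorem isHyperbolic_mul {n : ℕ} {p q : MvPolynomial (Fin n) ℝ} {e : Fin n → ℝ}
    (hp : IsHyperbolic p e) (hq : IsHyperbolic q e) : IsHyperbolic (p * q) e := by
  obtain ⟨⟨dp, hdp⟩, hpe, hpr⟩ := hp
  obtain ⟨⟨dq, hdq⟩, hqe, hqr⟩ := hq
  refine ⟨⟨dp + dq, hdp.mul hdq⟩, ?_, ?_⟩
  · rw [map_mul]; exact mul_pos hpe hqe
  · intro x z hz
    rw [map_mul] at hz
    rcases mul_eq_zero.mp hz with h | h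
    · exact hpr x z h
    · exact hqr x z h

theorem hypCone_mul {n : ℕ} (p q : MvPolynomial (Fin n) ℝ) (e : Fin n → ℝ) :
    hypCone (p * q) e = hypCone p e ∩ hypCone q e := by
  ext x
  simp only [hypCone, Set.mem_ofPred_eq, Set.mem_inter_iff, map_mul, mul_eq_zero]
  constructor
  · intro h
    exact ⟨fun t ht => h t (Or.inl ht), fun t ht => h t (Or.inr ht)⟩
  · rintro ⟨h1, h2⟩ t (ht | ht)
    · exact h1 t ht
    · exact h2 t ht

/-! ### Linear forms -/

theorem eval_linForm {n : ℕ} (c x : Fin n → ℝ) : eval x (linForm c) = ∑ i, c i * x i := by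
  simp [linForm]

theorem aeval_linForm {n : ℕ} (c : Fin n → ℝ) (w : Fin n → ℂ) :
    aeval w (linForm c) = ∑ i, (c i : ℂ) * w i := by
  simp [linForm]

theorem linForm_isHomogeneous {n : ℕ} (c : Fin n → ℝ) : (linForm c).IsHomogeneous 1 := by
  unfold linForm
  apply IsHomogeneous.sum
  intro i _
  exact isHomogeneous_C_mul_X (c i) i

theorem eval_linForm_line {n : ℕ} (c e x : Fin n → ℝ) (t : ℝ) :
    eval (fun i => t * e i - x i) (linForm c) = t * (∑ i, c i * e i) - ∑ i, c i * x i := by
  rw [eval_linForm, Finset.mul_sum, ← Finset.sum_sub_distrib]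
  apply Finset.sum_congr rfl
  intro i _; ring

theorem aeval_linForm_line {n : ℕ} (c e x : Fin n → ℝ) (z : ℂ) :
    aeval (fun i => z * (e i : ℂ) - (x i : ℂ)) (linForm c)
      = z * ((∑ i, c i * e i : ℝ) : ℂ) - ((∑ i, c i * x i : ℝ) : ℂ) := by
  rw [aeval_linForm]
  push_cast
  rw [Finset.mul_sum, ← Finset.sum_sub_distrib]
  apply Finset.sum_congr rfl
  intro i _; ring

/-- A product of linear forms, each positive at `e`, is hyperbolic with respect to `e`. -/
theorem isHyperbolic_prod_linForm {n k : ℕ} (l : Fin k → Fin n → ℝ) (e : Fin n → ℝ)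
    (he : ∀ j, 0 < ∑ i, l j i * e i) : IsHyperbolic (∏ j, linForm (l j)) e := by
  refine ⟨⟨∑ _j : Fin k, 1, IsHomogeneous.prod _ _ _ (fun j _ => linForm_isHomogeneous (l j))⟩,
    ?_, ?_⟩
  · rw [map_prod]
    apply Finset.prod_pos
    intro j _
    rw [eval_linForm]; exact he j
  · intro x z hz
    rw [map_prod] at hz
    obtain ⟨j, -, hj⟩ := Finset.prod_eq_zero_iff.mp hz
    rw [aeval_linForm_line] at hj
    have him := congrArg Complex.im hj
    simp only [Complex.sub_im, Complex.mul_im, Complex.ofReal_re, Complex.ofReal_im, mul_zero,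
      zero_add, Complex.zero_im, sub_zero] at him
    rcases mul_eq_zero.mp him with h | h
    · exact h
    · exact absurd h (he j).ne'

/-- The hyperbolicity cone of a product of linear forms positive at `e` is the polyhedral cone
cut out by the forms. -/
theorem hypCone_prod_linForm {n k : ℕ} (l : Fin k → Fin n → ℝ) (e : Fin n → ℝ)
    (he : ∀ j, 0 < ∑ i, l j i * e i) :
    hypCone (∏ j, linForm (l j)) e = {x | ∀ j, 0 ≤ ∑ i, l j i * x i} := by
  ext x
  simp only [hypCone, Set.mem_ofPred_eq, map_prod, Finset.prod_eq_zero_iff, Finset.mem_univ,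
    true_and, eval_linForm_line]
  constructor
  · intro h j
    have hpos := he j
    have := h ((∑ i, l j i * x i) / (∑ i, l j i * e i)) ⟨j, by field_simp; ring⟩
    have h2 := mul_nonneg this hpos.le
    rwa [div_mul_cancel₀ _ hpos.ne'] at h2
  · rintro h t ⟨j, hj⟩
    have hpos := he j
    have h1 : t * (∑ i, l j i * e i) = ∑ i, l j i * x i := by linarith
    have h2 : 0 ≤ t * (∑ i, l j i * e i) := h1 ▸ h j
    by_contra hneg
    push Not at hneg
    have := mul_neg_of_neg_of_pos hneg hpos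
    linarith

/-- A polyhedral cone `{x | ∀ j, 0 ≤ l_j(x)}` is a spectrahedron (diagonal matrices). -/
theorem polyhedral_spectrahedron {n k : ℕ} (l : Fin k → Fin n → ℝ) :
    IsSpectrahedron {x : Fin n → ℝ | ∀ j, 0 ≤ ∑ i, l j i * x i} := by
  refine ⟨k, 0, fun i => diagonal (fun j => l j i), by simp [Matrix.IsSymm],
    fun i => by simp [Matrix.IsSymm], ?_⟩
  have key : ∀ x : Fin n → ℝ,
      (0 + ∑ i, x i • diagonal (fun j => l j i) : Matrix (Fin k) (Fin k) ℝ)
        = diagonal (fun j => ∑ i, l j i * x i) := by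
    intro x
    ext a b
    simp only [zero_add, Matrix.sum_apply, Matrix.smul_apply, diagonal_apply, smul_eq_mul]
    by_cases hab : a = b
    · subst hab; simp [mul_comm]
    · simp [hab]
  ext x
  simp only [Set.mem_ofPred_eq]
  rw [key x, posSemidef_diagonal_iff]

end Vale.Agent.P256
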