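import Vale.Agent.Lib.P256.Products

namespace Vale.Agent.P256

open MvPolynomial Matrix

/-! ### Linear substitutions -/

/-- The polynomial `y ↦ p (M y)` in `m` variables: substitute `x_i := ∑ j, M i j * y_j`
in `p`. -/
noncomputable def pullback {n m : ℕ} (M : Matrix (Fin n) (Fin m) ℝ)
    (p : MvPolynomial (Fin n) ℝ) : MvPolynomial (Fin m) ℝ :=
  bind₁ (fun i => linForm (M i)) p

theorem eval_pullback {n m : ℕ} (M : Matrix (Fin n) (Fin m) ℝ) (p : MvPolynomial (Fin n) ℝ)
    (y : Fin m → ℝ) : eval y (pullback M p) = eval (M *ᵥ y) p := by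
  unfold pullback
  have h : eval y (bind₁ (fun i => linForm (M i)) p)
      = eval (fun i => eval y (linForm (M i))) p :=
    aeval_bind₁ (S := ℝ) y (fun i => linForm (M i)) p
  rw [h]
  have hf : (fun i => eval y (linForm (M i))) = M *ᵥ y := by
    funext i
    rw [eval_linForm]
    simp [mulVec, dotProduct]
  rw [hf]

theorem aeval_pullback {n m : ℕ} (M : Matrix (Fin n) (Fin m) ℝ) (p : MvPolynomial (Fin n) ℝ)
    (w : Fin m → ℂ) :
    aeval w (pullback M p) = aeval (fun i => ∑ j, (M i j : ℂ) * w j) p := by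
  unfold pullback
  rw [aeval_bind₁]
  have hf : (fun i => aeval w (linForm (M i))) = fun i => ∑ j, (M i j : ℂ) * w j := by
    funext i
    rw [aeval_linForm]
  rw [hf]

theorem isHyperbolic_pullback {n m : ℕ} (M : Matrix (Fin n) (Fin m) ℝ)
    {p : MvPolynomial (Fin n) ℝ} {e : Fin n → ℝ} (e' : Fin m → ℝ)
    (hp : IsHyperbolic p e) (he : M *ᵥ e' = e) : IsHyperbolic (pullback M p) e' := by
  obtain ⟨⟨d, hd⟩, hpe, hpr⟩ := hp
  refine ⟨⟨1 * d, ?_⟩, ?_, ?_⟩
  · exact hd.aeval (fun i => linForm (M i)) (fun i => linForm_isHomogeneous (M i))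
  · rw [eval_pullback, he]; exact hpe
  · intro y z hz
    rw [aeval_pullback] at hz
    apply hpr (M *ᵥ y) z
    have hf : (fun i => z * (e i : ℂ) - (((M *ᵥ y) i : ℝ) : ℂ))
        = fun i => ∑ j, (M i j : ℂ) * (z * (e' j : ℂ) - (y j : ℂ)) := by
      funext i
      have h1 : (e i : ℂ) = ∑ j, (M i j : ℂ) * (e' j : ℂ) := by
        rw [← he]; simp [mulVec, dotProduct]
      have h2 : (((M *ᵥ y) i : ℝ) : ℂ) = ∑ j, (M i j : ℂ) * (y j : ℂ) := by
        simp [mulVec, dotProduct]
      rw [h1, h2, Finset.mul_sum, ← Finset.sum_sub_distrib]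
      apply Finset.sum_congr rfl
      intro j _; ring
    rw [hf]; exact hz

theorem hypCone_pullback {n m : ℕ} (M : Matrix (Fin n) (Fin m) ℝ)
    (p : MvPolynomial (Fin n) ℝ) {e : Fin n → ℝ} (e' : Fin m → ℝ) (he : M *ᵥ e' = e) :
    hypCone (pullback M p) e' = {y | M *ᵥ y ∈ hypCone p e} := by
  have key : ∀ (y : Fin m → ℝ) (t : ℝ),
      eval (fun j => t * e' j - y j) (pullback M p)
        = eval (fun i => t * e i - (M *ᵥ y) i) p := by
    intro y t
    rw [eval_pullback]
    have hf : (M *ᵥ fun j => t * e' j - y j) = fun i => t * e i - (M *ᵥ y) i := by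
      funext i
      rw [← he]
      simp only [mulVec, dotProduct]
      rw [Finset.mul_sum, ← Finset.sum_sub_distrib]
      apply Finset.sum_congr rfl
      intro j _; ring
    rw [hf]
  ext y
  simp only [hypCone, Set.mem_ofPred_eq, key]

/-- The preimage of a spectrahedral shadow under a linear map is a spectrahedral shadow. -/
theorem shadow_preimage {n m : ℕ} (M : Matrix (Fin n) (Fin m) ℝ) {S : Set (Fin n → ℝ)}
    (hS : IsSpectrahedralShadow S) : IsSpectrahedralShadow {y : Fin m → ℝ | M *ᵥ y ∈ S} := by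
  obtain ⟨a, k, A0, A, B, h0, hA, hB, rfl⟩ := hS
  refine ⟨a, k, A0, fun j => ∑ i, M i j • A i, B, h0, ?_, hB, ?_⟩
  · intro j
    unfold Matrix.IsSymm
    rw [Matrix.transpose_sum]
    apply Finset.sum_congr rfl
    intro i _
    rw [Matrix.transpose_smul, (hA i).eq]
  · have key : ∀ y : Fin m → ℝ,
        ∑ j, y j • ∑ i, M i j • A i = ∑ i, (M *ᵥ y) i • A i := by
      intro y
      simp only [Finset.smul_sum, smul_smul]
      rw [Finset.sum_comm]
      apply Finset.sum_congr rfl
      intro i _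
      simp only [mulVec, dotProduct]
      rw [Finset.sum_smul]
      apply Finset.sum_congr rfl
      intro j _
      rw [mul_comm]
    ext y
    simp only [Set.mem_ofPred_eq, key]

end Vale.Agent.P256
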